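import Mathlib
import Vale.Agent.Lib.P243.MinPos
import Vale.Agent.Lib.P243.Weak.Assemble

open Vale.Agent.Lib.P243
open scoped ENNReal

namespace Vale.Agent.Results.P243.BangConstantBelowHalf

/-- The constant `c_3` of the problem: the infimum of `(∑ |B i|) / A_min(K)` over all convex bodies
`K` in three-space and all finite coverings of `K` by cylinders `B i + ℝ (u i)` whose bases are
measurable and of finite area. -/
noncomputable def cThree : ℝ≥0∞ :=
  sInf {r : ℝ≥0∞ | ∃ (K : Set E3) (m : ℕ) (u : Fin m → E3) (B : Fin m → Set E3),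
    IsConvexBody K ∧ IsCylinderCover K u B ∧ (∀ i, MeasurableSet (B i)) ∧
    (∀ i, area (B i) < ⊤) ∧ r = (∑ i, area (B i)) / minShadowArea K}

/-- `c_3 ≤ 0.49985 < 1/2`, and some finite covering of a convex body by cylinders with measurable
bases of finite area has total base area strictly less than half of the smallest projection area:
the answer to Bang's half-area question is negative. -/
theorem result :
    cThree ≤ ENNReal.ofReal (9997 / 20000) ∧ cThree < 1 / 2 ∧
    ∃ (K : Set E3) (m : ℕ) (u : Fin m → E3) (B : Fin m → Set E3),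
      IsConvexBody K ∧ IsCylinderCover K u B ∧ (∀ i, MeasurableSet (B i)) ∧
      (∀ i, area (B i) < ⊤) ∧ ∑ i, area (B i) < (1 / 2 : ℝ≥0∞) * minShadowArea K := by
  have hpos := (minShadowArea_pos_lt_top Weak.isConvexBody_Reg).1
  have htop := (minShadowArea_pos_lt_top Weak.isConvexBody_Reg).2
  have hsum := Weak.sum_area_le_min
  have hmeas : ∀ i, MeasurableSet (Weak.BB i) := fun i => (Weak.isCompact_BB i).measurableSet
  have h2 : ENNReal.ofReal (9997 / 20000) < 1 / 2 := by
    rw [show (1 / 2 : ℝ≥0∞) = ENNReal.ofReal (1 / 2) by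
      rw [ENNReal.ofReal_div_of_pos (by norm_num)]; simp]
    exact (ENNReal.ofReal_lt_ofReal_iff (by norm_num)).2 (by norm_num)
  have h3 : ENNReal.ofReal (9997 / 20000) * minShadowArea Weak.Reg
      < 1 / 2 * minShadowArea Weak.Reg :=
    ENNReal.mul_lt_mul_left hpos.ne' htop.ne h2
  have hlt : ∑ i, area (Weak.BB i) < (1 / 2 : ℝ≥0∞) * minShadowArea Weak.Reg :=
    lt_of_le_of_lt hsum h3
  have hfin : ∀ i, area (Weak.BB i) < ⊤ := by
    intro i
    have h4 : area (Weak.BB i) ≤ ∑ j, area (Weak.BB j) :=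
      Finset.single_le_sum (f := fun j => area (Weak.BB j)) (fun _ _ => zero_le)
        (Finset.mem_univ i)
    exact lt_of_le_of_lt h4 (lt_of_lt_of_le hlt le_top)
  have hc : cThree ≤ ENNReal.ofReal (9997 / 20000) := by
    refine le_trans (sInf_le ⟨Weak.Reg, Weak.M + Weak.M, Weak.uu, Weak.BB, Weak.isConvexBody_Reg,
      Weak.isCover, hmeas, hfin, rfl⟩) ?_
    exact ENNReal.div_le_of_le_mul hsum
  exact ⟨hc, lt_of_le_of_lt hc h2, Weak.Reg, Weak.M + Weak.M, Weak.uu, Weak.BB,
    Weak.isConvexBody_Reg, Weak.isCover, hmeas, hfin, hlt⟩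

end Vale.Agent.Results.P243.BangConstantBelowHalf
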