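import Mathlib
import Vale.Agent.Lib.P243.MinPos
import Vale.Agent.Lib.P243.Weak.Assemble

open Vale.Agent.Lib.P243
open scoped ENNReal

namespace Vale.Agent.Results.P243.BangHalfAreaFalse

/-- Bang's half-area inequality is false: there is a convex body in three-space (a regular
tetrahedron) with a finite covering by cylinders with compact bases whose total base area is at
most `0.49985` times the smallest area of an orthogonal projection of the body onto a plane.  The
second clause restates this as the failure of the universal inequality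
`(1/2) A_min(K) ≤ ∑ |B i|`. -/
theorem result :
    (∃ (K : Set E3) (m : ℕ) (u : Fin m → E3) (B : Fin m → Set E3),
      IsConvexBody K ∧ IsCylinderCover K u B ∧ (∀ i, IsCompact (B i)) ∧
      0 < minShadowArea K ∧ minShadowArea K < ⊤ ∧
      ∑ i, area (B i) ≤ ENNReal.ofReal (9997 / 20000) * minShadowArea K) ∧
    ¬ (∀ (K : Set E3) (m : ℕ) (u : Fin m → E3) (B : Fin m → Set E3),
      IsConvexBody K → IsCylinderCover K u B → (∀ i, IsCompact (B i)) →
      (1 / 2 : ℝ≥0∞) * minShadowArea K ≤ ∑ i, area (B i)) := by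
  have h : ∃ (K : Set E3) (m : ℕ) (u : Fin m → E3) (B : Fin m → Set E3),
      IsConvexBody K ∧ IsCylinderCover K u B ∧ (∀ i, IsCompact (B i)) ∧
      0 < minShadowArea K ∧ minShadowArea K < ⊤ ∧
      ∑ i, area (B i) ≤ ENNReal.ofReal (9997 / 20000) * minShadowArea K :=
    ⟨Weak.Reg, Weak.M + Weak.M, Weak.uu, Weak.BB, Weak.isConvexBody_Reg, Weak.isCover,
      Weak.isCompact_BB, (minShadowArea_pos_lt_top Weak.isConvexBody_Reg).1,
      (minShadowArea_pos_lt_top Weak.isConvexBody_Reg).2, Weak.sum_area_le_min⟩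
  refine ⟨h, fun hall => ?_⟩
  obtain ⟨K, m, u, B, hK, hC, hB, hpos, htop, hsum⟩ := h
  have h1 := (hall K m u B hK hC hB).trans hsum
  have h2 : ENNReal.ofReal (9997 / 20000) < 1 / 2 := by
    rw [show (1 / 2 : ℝ≥0∞) = ENNReal.ofReal (1 / 2) by
      rw [ENNReal.ofReal_div_of_pos (by norm_num)]; simp]
    exact (ENNReal.ofReal_lt_ofReal_iff (by norm_num)).2 (by norm_num)
  have h3 : ENNReal.ofReal (9997 / 20000) * minShadowArea K < 1 / 2 * minShadowArea K :=
    ENNReal.mul_lt_mul_left hpos.ne' htop.ne h2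
  exact absurd h1 (not_le.2 h3)

end Vale.Agent.Results.P243.BangHalfAreaFalse
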