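import Mathlib
import Vale.Agent.Lib.P243.Coplanar
import Vale.Agent.Lib.P243.MinPos

open Vale.Agent.Lib.P243
open scoped ENNReal

namespace Vale.Agent.Results.P243.CoplanarAxes

/-- Bang's half-area inequality for every finite covering of a convex body in three-space by
cylinders whose axes are all parallel to one plane (the plane orthogonal to the unit vector `n`):
the total base area is at least half of the smallest area of a projection of the body along a
direction of that plane, hence at least half of the smallest projection area of the body.
The first clause records that the smallest projection area is positive and finite. -/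
theorem result (K : Set E3) (hK : IsConvexBody K) (m : ℕ) (u : Fin m → E3) (B : Fin m → Set E3)
    (hC : IsCylinderCover K u B) (n : E3) (hn : ‖n‖ = 1) (hpar : ∀ i, inner ℝ (u i) n = 0) :
    (0 < minShadowArea K ∧ minShadowArea K < ⊤)
      ∧ minShadowArea K ≤ minShadowAreaIn n K
      ∧ minShadowAreaIn n K / 2 ≤ ∑ i, area (B i)
      ∧ minShadowArea K / 2 ≤ ∑ i, area (B i) := by
  have h := coplanar_axes hK hC hn hpar
  have h2 : minShadowAreaIn n K / 2 ≤ ∑ i, area (B i) := ENNReal.div_le_of_le_mul' h
  exact ⟨minShadowArea_pos_lt_top hK, minShadowArea_le_in n K, h2,
    (ENNReal.div_le_div_right (minShadowArea_le_in n K) 2).trans h2⟩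

end Vale.Agent.Results.P243.CoplanarAxes
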