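import Mathlib
import Vale.Agent.Lib.P243.Counter.Assemble

open Vale.Agent.Lib.P243
open scoped ENNReal

namespace Vale.Agent.Results.P243.DirectionwiseFalse

/-- The directionwise (stronger) form of Bang's half-area question is false: there is a convex
body in three-space (a tetrahedron) with a covering by four cylinders with compact bases whose
directionwise relative area is at most `89/185 < 1/2`.  The second clause restates this as the
failure of the universal inequality `1/2 ≤ ∑ |B i| / |shadow|`. -/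
theorem result :
    (∃ (K : Set E3) (u : Fin 4 → E3) (B : Fin 4 → Set E3),
      IsConvexBody K ∧ IsCylinderCover K u B ∧ (∀ i, IsCompact (B i)) ∧
      (∀ i, 0 < area (shadow (u i) K) ∧ area (shadow (u i) K) < ⊤) ∧
      ∑ i, relBase K (u i) (B i) ≤ ENNReal.ofReal (89 / 185)) ∧
    ¬ (∀ (K : Set E3) (m : ℕ) (u : Fin m → E3) (B : Fin m → Set E3),
      IsConvexBody K → IsCylinderCover K u B → (∀ i, IsCompact (B i)) →
      (1 / 2 : ℝ≥0∞) ≤ ∑ i, relBase K (u i) (B i)) := by
  have h : ∃ (K : Set E3) (u : Fin 4 → E3) (B : Fin 4 → Set E3),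
      IsConvexBody K ∧ IsCylinderCover K u B ∧ (∀ i, IsCompact (B i)) ∧
      (∀ i, 0 < area (shadow (u i) K) ∧ area (shadow (u i) K) < ⊤) ∧
      ∑ i, relBase K (u i) (B i) ≤ ENNReal.ofReal (89 / 185) :=
    ⟨Counter.Tet, Counter.uax, Counter.Bs, Counter.isConvexBody_Tet, Counter.isCover,
      Counter.isCompact_Bs,
      fun i => shadow_area_pos_lt_top Counter.isConvexBody_Tet (Counter.norm_uax i),
      Counter.sum_relBase_le⟩
  refine ⟨h, fun hall => ?_⟩
  obtain ⟨K, u, B, hK, hC, hB, -, hsum⟩ := h
  have h1 := (hall K 4 u B hK hC hB).trans hsum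
  have h2 : ENNReal.ofReal (89 / 185) < 1 / 2 := by
    rw [show (1 / 2 : ℝ≥0∞) = ENNReal.ofReal (1 / 2) by
      rw [ENNReal.ofReal_div_of_pos (by norm_num)]; simp]
    exact (ENNReal.ofReal_lt_ofReal_iff (by norm_num)).2 (by norm_num)
  exact absurd h1 (not_le.2 h2)

end Vale.Agent.Results.P243.DirectionwiseFalse
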