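import Mathlib
import Vale.Agent.Lib.P243.Final
import Vale.Agent.Lib.P243.ShadowArea
import Vale.Agent.Lib.P243.Coplanar
import Vale.Agent.Lib.P243.MinPos

open Vale.Agent.Lib.P243
open scoped ENNReal

namespace Vale.Agent.Results.P243.Summary

/-- For every finite covering of a convex body in three-space by cylinders, with relative base
areas `β i` and `R = ∑ β i`:
(0) the smallest projection area and the projection areas along the axes are positive and finite;
(1) `3 R ≥ 1 + 2 ∑ min(1, β i) ^ (3/2)`;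
(2) if the axes are parallel to at most `k` lines then `R ≥ 1/3 + 1/(8 √k)`;
(3) if the axes are parallel to at most two lines then `R ≥ 1/2`;
(4) if the axes are all parallel to one plane then the total base area is at least half of the
smallest area of a projection along a direction of that plane, hence at least half of the smallest
projection area of the body. -/
theorem result (K : Set E3) (hK : IsConvexBody K) (m : ℕ) (u : Fin m → E3) (B : Fin m → Set E3)
    (hC : IsCylinderCover K u B) :
    (0 < minShadowArea K ∧ minShadowArea K < ⊤)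
      ∧ (∀ i, 0 < area (shadow (u i) K) ∧ area (shadow (u i) K) < ⊤)
      ∧ (1 + 2 * ∑ i, (min 1 (relBase K (u i) (B i))) ^ (3 / 2 : ℝ)
          ≤ 3 * ∑ i, relBase K (u i) (B i))
      ∧ (∀ (k : ℕ) (w : Fin k → E3), 1 ≤ k → (∀ j, ‖w j‖ = 1) →
          (∀ i, ∃ j, SameLine (u i) (w j)) →
          ENNReal.ofReal (1 / 3 + 1 / (8 * √(k : ℝ))) ≤ ∑ i, relBase K (u i) (B i))
      ∧ (∀ w₁ w₂ : E3, ‖w₁‖ = 1 → ‖w₂‖ = 1 →
          (∀ i, SameLine (u i) w₁ ∨ SameLine (u i) w₂) →
          (1 / 2 : ℝ≥0∞) ≤ ∑ i, relBase K (u i) (B i))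
      ∧ (∀ n : E3, ‖n‖ = 1 → (∀ i, inner ℝ (u i) n = 0) →
          minShadowArea K ≤ minShadowAreaIn n K
            ∧ minShadowAreaIn n K / 2 ≤ ∑ i, area (B i)
            ∧ minShadowArea K / 2 ≤ ∑ i, area (B i)) := by
  refine ⟨minShadowArea_pos_lt_top hK, fun i => shadow_area_pos_lt_top hK (hC.1 i),
    pow_form hK hC, fun _ w hk hw hdir => count_bound hK hC hk w hw hdir,
    fun w₁ w₂ hw₁ hw₂ hdir => (two_lines hK hC w₁ w₂ hw₁ hw₂ hdir).1, ?_⟩
  intro n hn hpar
  have h := coplanar_axes hK hC hn hpar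
  have h2 : minShadowAreaIn n K / 2 ≤ ∑ i, area (B i) := ENNReal.div_le_of_le_mul' h
  exact ⟨minShadowArea_le_in n K, h2,
    (ENNReal.div_le_div_right (minShadowArea_le_in n K) 2).trans h2⟩

end Vale.Agent.Results.P243.Summary
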